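import Vale.Agent.H4.IDS.Density

namespace Vale.Agent.Results.P028.AllShifts

open MeasureTheory

/-- `‖t‖`, the distance from `t` to the nearest integer. -/
noncomputable def distInt (t : ℝ) : ℝ := |t - round t|

/-- `W_γ(ψ)`: the reals `x` with `‖q x - γ‖ < ψ(q)` for infinitely many positive integers `q`. -/
def W (γ : ℝ) (ψ : ℕ → ℝ) : Set ℝ :=
  {x | {q : ℕ | 0 < q ∧ distInt (q * x - γ) < ψ q}.Infinite}

/-- `σ_{-1/2}(q) = ∑_{d ∣ q} d^{-1/2}`. -/
noncomputable def sigmaHalf (q : ℕ) : ℝ := ∑ d ∈ q.divisors, 1 / √(d : ℝ)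

lemma distInt_le (t : ℝ) (n : ℤ) : distInt t ≤ |t - n| := round_le t n

lemma distInt_add_int (t : ℝ) (n : ℤ) : distInt (t + n) = distInt t := by
  unfold distInt
  rw [round_add_intCast]
  push_cast
  congr 1
  ring

lemma main (γ : ℝ) (ψ : ℕ → ℝ) (hψ : ∀ q, 0 ≤ ψ q)
    (hdiv : ¬ Summable (fun q : ℕ => min (ψ q) (1 / (q : ℝ)) / sigmaHalf q ^ 4)) :
    volume (W γ ψ)ᶜ = 0 := by
  set ψ' : ℕ → ℝ := fun q => min (ψ q) (1 / (q : ℝ)) / 16 with hψ'
  have hmin0 : ∀ q : ℕ, 0 ≤ min (ψ q) (1 / (q : ℝ)) := fun q => le_min (hψ q) (by positivity)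
  have hψ'0 : ∀ q, 0 ≤ ψ' q := fun q => by
    have := hmin0 q
    simp only [hψ']; positivity
  have hψ'le : ∀ q, ψ' q ≤ ψ q := fun q => by
    have h1 := min_le_left (ψ q) (1 / (q : ℝ))
    have h2 := hmin0 q
    simp only [hψ']; linarith
  have hψ'1 : ∀ q : ℕ, 1 ≤ q → ψ' q / q ≤ 1 / (16 * (q : ℝ) ^ 2) := by
    intro q hq
    have hq0 : (0 : ℝ) < q := by exact_mod_cast hq
    have h1 := min_le_right (ψ q) (1 / (q : ℝ))
    simp only [hψ']
    calc min (ψ q) (1 / (q : ℝ)) / 16 / q ≤ (1 / (q : ℝ)) / 16 / q := by gcongr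
      _ = 1 / (16 * (q : ℝ) ^ 2) := by field_simp
  have hdiv' : ¬ Summable (fun q : ℕ => ψ' q / Vale.Agent.H4.IDS.F q ^ 4) := by
    intro hs
    apply hdiv
    have := hs.mul_left 16
    refine this.congr ?_
    intro q
    simp only [hψ']
    have : Vale.Agent.H4.IDS.F q = sigmaHalf q := rfl
    rw [this]; ring
  -- the null set in the unit interval
  have hnull : volume ((W γ ψ)ᶜ ∩ Set.Icc 0 1) = 0 := by
    have hsub : (W γ ψ)ᶜ ∩ Set.Icc 0 1 ⊆ ⋃ n : ℕ, Vale.Agent.H4.IDS.Av (Int.fract γ) ψ' n := by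
      rintro x ⟨hx, hx01⟩
      have hfin : {q : ℕ | 0 < q ∧ distInt (q * x - γ) < ψ q}.Finite := by
        by_contra h
        exact hx h
      obtain ⟨n, hn⟩ := hfin.bddAbove
      rw [Set.mem_iUnion]
      refine ⟨n + 1, hx01, ?_⟩
      rw [Set.mem_iInter]; intro q
      rw [Set.mem_iInter]; intro hq
      rw [Set.mem_iInter]; intro a
      rw [Set.mem_iInter]; intro _
      intro hmem
      unfold Vale.Agent.H4.IDS.Bl at hmem
      rw [Metric.mem_ball, Real.dist_eq] at hmem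
      have hq0 : (0 : ℝ) < q := by exact_mod_cast (by omega : 0 < q)
      have h1 : distInt (q * x - γ) < ψ q := by
        have h2 : |(q : ℝ) * x - γ - ((a : ℤ) - ⌊γ⌋ : ℤ)| < ψ' q := by
          have h3 : (q : ℝ) * x - γ - ((a : ℤ) - ⌊γ⌋ : ℤ) = q * (x - ((a : ℝ) + Int.fract γ) / q) := by
            push_cast
            rw [Int.fract]
            field_simp
            ring
          rw [h3, abs_mul, abs_of_pos hq0]
          calc (q : ℝ) * |x - ((a : ℝ) + Int.fract γ) / q| < q * (ψ' q / q) := by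
                apply mul_lt_mul_of_pos_left hmem hq0
            _ = ψ' q := by field_simp
        exact lt_of_le_of_lt (distInt_le _ _) (lt_of_lt_of_le h2 (hψ'le q))
      have h4 := hn (show q ∈ {q : ℕ | 0 < q ∧ distInt (q * x - γ) < ψ q} from ⟨by omega, h1⟩)
      omega
    refine measure_mono_null hsub (measure_iUnion_null ?_)
    intro n
    exact Vale.Agent.H4.IDS.Av_null (Int.fract γ) (Int.fract_nonneg γ) (Int.fract_lt_one γ) ψ' hψ'0
      hψ'1 hdiv' n
  -- periodicity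
  have hper : ∀ (x : ℝ) (k : ℤ), x ∈ W γ ψ ↔ x + k ∈ W γ ψ := by
    intro x k
    unfold W
    simp only [Set.mem_setOf_eq]
    have : {q : ℕ | 0 < q ∧ distInt (q * x - γ) < ψ q} =
        {q : ℕ | 0 < q ∧ distInt (q * (x + k) - γ) < ψ q} := by
      ext q
      simp only [Set.mem_setOf_eq]
      have e : (q : ℝ) * (x + k) - γ = q * x - γ + ((q * k : ℤ) : ℝ) := by push_cast; ring
      rw [e, distInt_add_int]
    rw [this]
  have hcover : (W γ ψ)ᶜ ⊆ ⋃ k : ℤ, (fun x : ℝ => x + k) ⁻¹' ((W γ ψ)ᶜ ∩ Set.Icc 0 1) := by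
    intro x hx
    rw [Set.mem_iUnion]
    refine ⟨-⌊x⌋, ?_⟩
    rw [Set.mem_preimage]
    refine ⟨?_, ?_⟩
    · rw [Set.mem_compl_iff, ← hper x (-⌊x⌋)]; exact hx
    · push_cast
      have h1 := Int.floor_le x
      have h2 := Int.lt_floor_add_one x
      constructor <;> linarith
  refine measure_mono_null hcover (measure_iUnion_null ?_)
  intro k
  rw [measure_preimage_add_right]
  exact hnull

theorem result :
    (∀ (γ : ℝ) (ψ : ℕ → ℝ), (∀ q, 0 ≤ ψ q) →
      ¬ Summable (fun q : ℕ => min (ψ q) (1 / (q : ℝ)) / sigmaHalf q ^ 4) →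
      volume (W γ ψ)ᶜ = 0) ∧
    (∀ (γ : ℝ) (ψ : ℕ → ℝ) (C : ℝ), (∀ q, 0 ≤ ψ q) →
      (∀ q : ℕ, 1 ≤ q → ψ q ≤ C / q) → (∀ q : ℕ, ψ q ≠ 0 → sigmaHalf q ≤ C) →
      ¬ Summable (fun q : ℕ => (Nat.totient q : ℝ) / q * ψ q) →
      volume (W γ ψ)ᶜ = 0) ∧
    (∀ (γ : ℝ) (ψ f : ℕ → ℝ) (S : Set ℕ), (∀ q, 0 ≤ ψ q) → (∀ q, 0 ≤ f q) →
      AntitoneOn f (Set.Ici 1) → ¬ Summable f →
      (∃ c : ℝ, 0 < c ∧ ∃ N₀ : ℕ, ∀ N ≥ N₀, c * N ≤ (((Set.Icc 1 N) ∩ S).ncard : ℝ)) →
      (∀ q ∈ S, f q ≤ ψ q) → volume (W γ ψ)ᶜ = 0) := by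
  refine ⟨main, ?_, ?_⟩
  · intro γ ψ C hψ hC hS hdiv
    apply main γ ψ hψ
    intro hs
    apply hdiv
    set C' := max C 1 with hC'
    have hC'1 : 1 ≤ C' := le_max_right _ _
    have hC'0 : 0 < C' := by linarith
    refine Summable.of_nonneg_of_le (fun q => ?_) (fun q => ?_) (hs.mul_left (C' ^ 5))
    · have := hψ q; positivity
    · rcases Nat.eq_zero_or_pos q with hq | hq
      · subst hq; simp [sigmaHalf]
      · by_cases h0 : ψ q = 0
        · rw [h0]
          have : 0 ≤ C' ^ 5 * (min 0 (1 / (q : ℝ)) / sigmaHalf q ^ 4) := by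
            have : min 0 (1 / (q : ℝ)) = 0 := min_eq_left (by positivity)
            rw [this]; simp
          simpa using this
        · have hq0 : (0 : ℝ) < q := by exact_mod_cast hq
          have hF1 : 1 ≤ sigmaHalf q := Vale.Agent.H4.IDS.one_le_F hq
          have hFC : sigmaHalf q ≤ C' := (hS q h0).trans (le_max_left _ _)
          have hψq := hψ q
          have h1 : ψ q / C' ≤ min (ψ q) (1 / (q : ℝ)) := by
            apply le_min
            · exact div_le_self hψq hC'1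
            · rw [div_le_div_iff₀ hC'0 hq0]
              have h2 := hC q hq
              rw [le_div_iff₀ hq0] at h2
              have := le_max_left C 1
              linarith
          have h2 : (Nat.totient q : ℝ) / q ≤ 1 := by
            rw [div_le_one hq0]
            exact_mod_cast Nat.totient_le q
          have h3 : sigmaHalf q ^ 4 ≤ C' ^ 4 := by gcongr
          have hF0 : 0 < sigmaHalf q := by linarith
          calc (Nat.totient q : ℝ) / q * ψ q ≤ 1 * ψ q := by gcongr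
            _ = C' ^ 5 * (ψ q / C' / C' ^ 4) := by field_simp
            _ ≤ C' ^ 5 * (min (ψ q) (1 / (q : ℝ)) / sigmaHalf q ^ 4) := by gcongr
  · intro γ ψ f S hψ hf hanti hdiv hdens hle
    apply main γ ψ hψ
    exact Vale.Agent.H4.IDS.not_summable_density f ψ hf hψ
      (fun m n hm hmn => hanti (Set.mem_Ici.mpr hm) (Set.mem_Ici.mpr (by omega)) hmn) hdiv S hdens hle

end Vale.Agent.Results.P028.AllShifts
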